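import Vale.Agent.P250.Bridge

open Vale.Agent.P250.Stmt

/-- A simply connected, complete, negatively pinched Kähler manifold of complex dimension three (an
open subset of `ℂ³` with a Kähler metric) that is not biholomorphic to a bounded domain of `ℂ³`. -/
theorem Vale.Agent.Results.P250.NotBounded.result :
    ∃ (U : Set (Cn 3)) (g : Cn 3 → Cn 3 → Cn 3 → ℝ) (Γ : Cn 3 → Cn 3 → Cn 3 → Cn 3),
      IsOpen U ∧ SimplyConnectedSpace U ∧ IsKahler U g ∧ IsLeviCivita U g Γ ∧
      GeodComplete U Γ ∧ NegPinched U g Γ ∧ ¬ BiholoToBounded U :=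
  Vale.Agent.P250.main'
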